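import Mathlib

/-!
# Eilenberg inequality for slices by a `1`-Lipschitz function
-/

namespace Vale.Agent.P073.RT.H712

open MeasureTheory Set Filter Topology Metric
open scoped ENNReal NNReal

/-- covers which are almost optimal for the Hausdorff measure -/
theorem exists_cover {X : Type*} [MetricSpace X] [MeasurableSpace X] [BorelSpace X] (d : ℝ)
    (s : Set X) (c r : ℝ≥0∞) (hc : μH[d] s < c) (hr : 0 < r) :
    ∃ t : ℕ → Set X, s ⊆ ⋃ n, t n ∧ (∀ n, ediam (t n) ≤ r) ∧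
      ∑' n, ⨆ _ : (t n).Nonempty, ediam (t n) ^ d < c := by
  rw [Measure.hausdorffMeasure_apply] at hc
  have h1 : (⨅ (t : ℕ → Set X) (_ : s ⊆ ⋃ n, t n) (_ : ∀ n, ediam (t n) ≤ r),
      ∑' n, ⨆ _ : (t n).Nonempty, ediam (t n) ^ d) < c := by
    refine lt_of_le_of_lt ?_ hc
    exact le_iSup₂_of_le r hr le_rfl
  simp only [iInf_lt_iff] at h1
  obtain ⟨t, h1, h2, h3⟩ := h1
  exact ⟨t, h1, h2, h3⟩

/-- **Eilenberg inequality** -/
theorem eilenberg {X : Type*} [MetricSpace X] [MeasurableSpace X] [BorelSpace X] {d : ℝ}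
    (hd : 0 ≤ d) {u : X → ℝ} (hu : LipschitzWith 1 u) (s : Set X) (hs : μH[d + 1] s ≠ ⊤) :
    ∃ G : ℝ → ℝ≥0∞, Measurable G ∧ (∀ τ, μH[d] (s ∩ u ⁻¹' {τ}) ≤ G τ) ∧
      ∫⁻ τ, G τ ≤ μH[d + 1] s := by
  have hc : ∀ m : ℕ, ∃ t : ℕ → Set X, s ⊆ ⋃ n, t n ∧
      (∀ n, ediam (t n) ≤ ((m : ℝ≥0∞) + 1)⁻¹) ∧
      ∑' n, ⨆ _ : (t n).Nonempty, ediam (t n) ^ (d + 1) < μH[d + 1] s + ((m : ℝ≥0∞) + 1)⁻¹ := by
    intro m
    refine exists_cover (d + 1) s _ _ ?_ ?_
    · exact ENNReal.lt_add_right hs (by simp)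
    · simp
  choose t ht1 ht2 ht3 using hc
  set g : ℕ → ℝ → ℝ≥0∞ := fun m τ =>
    ∑' n, (closure (u '' t m n)).indicator (fun _ => ediam (t m n) ^ d) τ with hg
  have hgm : ∀ m, Measurable (g m) := by
    intro m
    refine Measurable.tsum fun n => ?_
    exact measurable_const.indicator isClosed_closure.measurableSet
  have hlim : Tendsto (fun m : ℕ => ((m : ℝ≥0∞) + 1)⁻¹) atTop (𝓝 0) := by
    have h := ENNReal.tendsto_inv_nat_nhds_zero.comp (tendsto_add_atTop_nat 1)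
    refine h.congr fun m => ?_
    simp
  refine ⟨fun τ => liminf (fun m => g m τ) atTop, Measurable.liminf hgm, ?_, ?_⟩
  · intro τ
    have h := Measure.hausdorffMeasure_le_liminf_tsum (β := ℕ)
      (ι := fun m => {n : ℕ // τ ∈ closure (u '' t m n)}) d (s ∩ u ⁻¹' {τ}) (l := atTop)
      (fun m : ℕ => ((m : ℝ≥0∞) + 1)⁻¹) hlim (fun m n => t m n.1)
      (Eventually.of_forall fun m n => ht2 m n.1)
      (Eventually.of_forall fun m x hx => by
        obtain ⟨n, hn⟩ := mem_iUnion.1 (ht1 m hx.1)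
        have h2 : τ ∈ closure (u '' t m n) := subset_closure ⟨x, hn, hx.2⟩
        exact mem_iUnion.2 ⟨⟨n, h2⟩, hn⟩)
    refine h.trans (le_of_eq ?_)
    congr 1
    funext m
    rw [hg]
    simp only
    refine (tsum_subtype {n : ℕ | τ ∈ closure (u '' t m n)} (fun n => ediam (t m n) ^ d)).trans ?_
    refine tsum_congr fun n => ?_
    by_cases h3 : τ ∈ closure (u '' t m n)
    · rw [indicator_of_mem (by exact h3), indicator_of_mem h3]
    · rw [indicator_of_notMem (by exact h3), indicator_of_notMem h3]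
  · have h1 : ∀ m, ∫⁻ τ, g m τ ≤ μH[d + 1] s + ((m : ℝ≥0∞) + 1)⁻¹ := by
      intro m
      refine le_trans ?_ (ht3 m).le
      rw [hg]
      simp only
      rw [lintegral_tsum fun n =>
        (measurable_const.indicator isClosed_closure.measurableSet).aemeasurable]
      refine ENNReal.tsum_le_tsum fun n => ?_
      rw [lintegral_indicator_const isClosed_closure.measurableSet]
      by_cases hn : (t m n).Nonempty
      · rw [ciSup_pos hn, ENNReal.rpow_add_of_nonneg _ _ hd zero_le_one, ENNReal.rpow_one]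
        refine mul_le_mul_right ?_ _
        refine (Real.volume_le_diam _).trans ?_
        rw [ediam_closure]
        simpa using hu.ediam_image_le (t m n)
      · rw [not_nonempty_iff_eq_empty.1 hn]
        simp
    refine (lintegral_liminf_le hgm).trans ?_
    have h2 : Tendsto (fun m : ℕ => μH[d + 1] s + ((m : ℝ≥0∞) + 1)⁻¹) atTop
        (𝓝 (μH[d + 1] s + 0)) := tendsto_const_nhds.add hlim
    rw [add_zero] at h2
    rw [← h2.liminf_eq]
    exact liminf_le_liminf (Eventually.of_forall h1)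

/-- slices of null sets -/
theorem slice_null {X : Type*} [MetricSpace X] [MeasurableSpace X] [BorelSpace X] {d : ℝ}
    (hd : 0 ≤ d) {u : X → ℝ} (hu : LipschitzWith 1 u) (s : Set X) (hs : μH[d + 1] s = 0) :
    ∀ᵐ τ : ℝ, μH[d] (s ∩ u ⁻¹' {τ}) = 0 := by
  obtain ⟨G, hG, h1, h2⟩ := eilenberg hd hu s (by simp [hs])
  rw [hs, nonpos_iff_eq_zero, lintegral_eq_zero_iff hG] at h2
  filter_upwards [h2] with τ hτ
  exact le_antisymm ((h1 τ).trans (le_of_eq hτ)) bot_le

/-- sets of finite zero dimensional measure -/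
theorem finite_of_zero {X : Type*} [MetricSpace X] [MeasurableSpace X] [BorelSpace X]
    {s : Set X} (hs : μH[0] s ≠ ⊤) : s.Finite := by
  by_contra h
  have h' : s.Infinite := h
  refine hs (ENNReal.eq_top_of_forall_nnreal_le fun r => ?_)
  obtain ⟨N, hN⟩ := exists_nat_ge (r : ℝ)
  obtain ⟨F, hF, hc⟩ := h'.exists_subset_card_eq N
  have h1 : μH[0] (F : Set X) = (N : ℝ≥0∞) := by
    rw [← sum_measure_singleton]
    simp only [Measure.hausdorffMeasure_zero_singleton]
    simp [hc]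
  have h2 : ((r : ℝ≥0) : ℝ≥0∞) ≤ (N : ℝ≥0∞) := by
    have : r ≤ (N : ℝ≥0) := by exact_mod_cast hN
    exact_mod_cast this
  exact h2.trans (h1 ▸ measure_mono hF)

/-- slices of sets of finite length -/
theorem slice_finite {X : Type*} [MetricSpace X] [MeasurableSpace X] [BorelSpace X]
    {u : X → ℝ} (hu : LipschitzWith 1 u) (s : Set X) (hs : μH[1] s ≠ ⊤) :
    ∀ᵐ τ : ℝ, (s ∩ u ⁻¹' {τ}).Finite := by
  have hs' : μH[(0 : ℝ) + 1] s ≠ ⊤ := by simpa using hs
  obtain ⟨G, hG, h1, h2⟩ := eilenberg le_rfl hu s hs'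
  filter_upwards [ae_lt_top hG (ne_top_of_le_ne_top hs' h2)] with τ hτ
  exact finite_of_zero (ne_top_of_le_ne_top hτ.ne (h1 τ))

/-- coordinates -/
theorem lip_coord {ι : Type*} [Fintype ι] (k : ι) : LipschitzWith 1 fun x : ι → ℝ => x k :=
  LipschitzWith.eval k

/-- images of null sets by locally Lipschitz functions -/
theorem null_image {X : Type*} [MetricSpace X] [SecondCountableTopology X] [MeasurableSpace X]
    [BorelSpace X] {S Ω : Set X} (hS : μH[1] S = 0) (hSΩ : S ⊆ Ω) (f : X → ℝ)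
    (hf : ∀ x ∈ Ω, ∃ (C : ℝ≥0) (U : Set X), U ∈ 𝓝 x ∧ LipschitzOnWith C f U) :
    volume (f '' S) = 0 := by
  choose! C U hU hL using hf
  obtain ⟨T, hTΩ, hT, hcov⟩ := TopologicalSpace.countable_cover_nhdsWithin
    (f := U) (s := Ω) fun x hx => mem_nhdsWithin_of_mem_nhds (hU x hx)
  have h1 : f '' S ⊆ ⋃ x ∈ T, f '' (S ∩ U x) := by
    rintro _ ⟨y, hy, rfl⟩
    obtain ⟨x, hx, hyx⟩ := mem_iUnion₂.1 (hcov (hSΩ hy))
    exact mem_iUnion₂.2 ⟨x, hx, y, ⟨hy, hyx⟩, rfl⟩
  refine measure_mono_null h1 ((measure_biUnion_null_iff hT).2 fun x hx => ?_)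
  rw [← hausdorffMeasure_real]
  refine le_antisymm ?_ bot_le
  refine (((hL x (hTΩ hx)).mono inter_subset_right).hausdorffMeasure_image_le zero_le_one).trans ?_
  rw [measure_mono_null inter_subset_left hS]
  simp

end Vale.Agent.P073.RT.H712
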