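import Vale.Agent.P073.RT.Rows
import Vale.Agent.P073.RT.H712.Slice

/-!
# P073, theorem (RT): rows Z1 and Z2
-/

namespace Vale.Agent.P073.RT.H712

open MeasureTheory Set Filter Topology Metric
open Vale.Agent.P073.St (V)
open scoped ENNReal NNReal

/-- **Row Z1** -/
theorem specLength : SpecLength := by
  intro K f Kn hK hKn k
  have h1 : ∀ᵐ t : ℝ, ∀ n, (Kn n ∩ (fun x : V => x k) ⁻¹' {t}).Finite :=
    ae_all_iff.2 fun n => slice_finite (lip_coord k) (Kn n) (hKn n)
  filter_upwards [h1] with t ht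
  have h2 : (K ∩ {x : V | x k = t}).Countable := by
    refine (countable_iUnion fun n => (ht n).countable).mono ?_
    rintro x ⟨hx, hxt⟩
    obtain ⟨n, hn⟩ := mem_iUnion.1 (hK hx)
    exact mem_iUnion.2 ⟨n, hn, hxt⟩
  exact ⟨fun j _ => (h2.image _).measure_zero _, fun i => (h2.image _).measure_zero _⟩

/-- **Row Z2** -/
theorem specArea : SpecArea := by
  intro Ω K f _ hKΩ hK hf k
  have hK' : μH[(1 : ℝ) + 1] K = 0 := by
    rw [show (1 : ℝ) + 1 = 2 by norm_num]
    exact hK
  filter_upwards [slice_null zero_le_one (lip_coord k) K hK'] with t ht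
  have ht' : μH[1] (K ∩ {x : V | x k = t}) = 0 := ht
  refine ⟨fun j _ => null_image (Ω := univ) ht' (subset_univ _) _ fun x _ =>
    ⟨1, univ, univ_mem, (lip_coord j).lipschitzOnWith⟩, fun i => ?_⟩
  refine null_image (Ω := Ω) ht' (inter_subset_left.trans hKΩ) (fun x => f x i) fun x hx => ?_
  obtain ⟨C, U, hU, hC⟩ := hf x hx
  refine ⟨1 * C, U, hU, ?_⟩
  exact (lip_coord i).lipschitzOnWith (s := univ) |>.comp hC (mapsTo_univ _ _)

end Vale.Agent.P073.RT.H712
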