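import Vale.Agent.P073.RT.Rows

/-!
# P073, theorem (RT): row T3
-/

namespace Vale.Agent.P073.RT.H712

open MeasureTheory Set Filter Topology Metric
open Vale.Agent.P073.St (V)
open scoped ENNReal NNReal

/-- a lattice which avoids a null compact set -/
theorem exists_lattice (P : Set ℝ) (hP : IsCompact P) (h0 : volume P = 0) (s : ℝ) (hs : 0 < s) :
    ∃ θ δ : ℝ, 0 < δ ∧ ∀ x ∈ P, ∀ n : ℤ, δ ≤ |x - (θ + n * s)| := by
  have h1 : ∀ᵐ θ : ℝ, ∀ n : ℤ, θ + n * s ∉ P := by
    refine ae_all_iff.2 fun n => ?_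
    have h2 : volume ((fun θ : ℝ => θ + n * s) ⁻¹' P) = 0 := by
      rw [measure_preimage_add_right]
      exact h0
    exact measure_eq_zero_iff_ae_notMem.1 h2
  obtain ⟨θ, hθ⟩ := h1.exists
  have hcl : IsClosed (range fun n : ℤ => θ + n * s) := by
    have h3 : IsClosed (range fun n : ℤ => (n : ℝ)) := Int.isClosedEmbedding_coe_real.isClosed_range
    have h4 : (range fun n : ℤ => θ + n * s) =
        (fun y : ℝ => (y - θ) / s) ⁻¹' (range fun n : ℤ => (n : ℝ)) := by
      ext y
      simp only [mem_range, mem_preimage]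
      constructor
      · rintro ⟨n, rfl⟩
        exact ⟨n, by field_simp; ring⟩
      · rintro ⟨n, hn⟩
        refine ⟨n, ?_⟩
        rw [hn]
        field_simp
        ring
    rw [h4]
    exact h3.preimage (by fun_prop)
  have hd : Disjoint P (range fun n : ℤ => θ + n * s) := by
    rw [Set.disjoint_left]
    rintro _ hx ⟨n, rfl⟩
    exact hθ n hx
  obtain ⟨δ, hδ, hdd⟩ := hd.exists_thickenings hP hcl
  refine ⟨θ, δ, hδ, fun x hx n => ?_⟩
  by_contra h
  push Not at h
  refine Set.disjoint_left.1 hdd (self_subset_thickening hδ _ hx) ?_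
  rw [mem_thickening_iff]
  exact ⟨θ + n * s, ⟨n, rfl⟩, by rwa [Real.dist_eq]⟩

/-- the cell number -/
theorem cell_bound (x θ s : ℝ) (hs : 0 < s) :
    |x - (θ + (⌊(x - θ) / s⌋ + 1 / 2) * s)| ≤ s / 2 := by
  have h1 := Int.floor_le ((x - θ) / s)
  have h2 := Int.lt_floor_add_one ((x - θ) / s)
  rw [le_div_iff₀ hs] at h1
  rw [div_lt_iff₀ hs] at h2
  rw [abs_le]
  constructor <;> nlinarith

/-- **Row T3** -/
theorem specSquares : SpecSquares := by
  intro K U k a hU hUK hC hP
  set C : Set V := K ∩ U ∩ {x | x k = a} with hCdef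
  -- size
  obtain ⟨ε, hε, hεU⟩ := hC.exists_cthickening_subset_open hU
    (fun x hx => hx.1.2)
  set s : ℝ := ε / 2 with hs
  have hs0 : 0 < s := by positivity
  -- lattice
  have hlat : ∀ l : Fin 3, ∃ θ δ : ℝ, 0 < δ ∧ (l ≠ k → ∀ x ∈ C, ∀ n : ℤ,
      δ ≤ |x l - (θ + n * s)|) := by
    intro l
    by_cases hl : l = k
    · exact ⟨0, 1, one_pos, fun h => absurd hl h⟩
    · obtain ⟨θ, δ, hδ, h⟩ := exists_lattice ((fun x : V => x l) '' C)
        (hC.image (continuous_apply l)) (hP l hl) s hs0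
      exact ⟨θ, δ, hδ, fun _ x hx n => h _ ⟨x, hx, rfl⟩ n⟩
  choose θ δ hδ hlat using hlat
  obtain ⟨δ₀, hδ₀, hδle⟩ : ∃ δ₀ : ℝ, 0 < δ₀ ∧ ∀ l, δ₀ ≤ δ l := by
    refine ⟨min (δ 0) (min (δ 1) (δ 2)), by simp [hδ], fun l => ?_⟩
    fin_cases l <;> simp
  -- centres
  set cen : (Fin 3 → ℤ) → V := fun n l => if l = k then a else θ l + (n l + 1 / 2) * s with hcen
  set num : V → (Fin 3 → ℤ) := fun x l => if l = k then 0 else ⌊(x l - θ l) / s⌋ with hnum
  have hfin : (num '' C).Finite := by
    obtain ⟨R, hR⟩ := hC.isBounded.subset_closedBall (0 : V)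
    refine (Set.finite_Icc (fun l => min 0 ⌊(-R - θ l) / s⌋ : Fin 3 → ℤ)
      (fun l => max 0 ⌊(R - θ l) / s⌋)).subset ?_
    rintro _ ⟨x, hx, rfl⟩
    have hx' : ∀ l, |x l| ≤ R := by
      intro l
      have h1 := hR hx
      rw [mem_closedBall_zero_iff] at h1
      exact (norm_le_pi_norm x l).trans h1
    constructor
    · intro l
      simp only [hnum]
      split_ifs
      · exact min_le_left _ _
      · refine (min_le_right _ _).trans (Int.floor_mono ?_)
        have := (abs_le.1 (hx' l)).1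
        gcongr
    · intro l
      simp only [hnum]
      split_ifs
      · exact le_max_left _ _
      · refine le_trans (Int.floor_mono ?_) (le_max_right _ _)
        have := (abs_le.1 (hx' l)).2
        gcongr
  classical
  set F : Finset V := (hfin.image cen).toFinset with hF
  have hFmem : ∀ c, c ∈ F ↔ ∃ x ∈ C, cen (num x) = c := by
    intro c
    rw [hF, Set.Finite.mem_toFinset]
    simp
  have hck : ∀ c ∈ F, c k = a := by
    intro c hc
    obtain ⟨x, _, rfl⟩ := (hFmem c).1 hc
    simp [hcen]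
  -- coordinates of the points of `C` in their cells
  have hcell : ∀ x : V, ∀ l, l ≠ k → |x l - cen (num x) l| ≤ s / 2 := by
    intro x l hl
    simp only [hcen, hnum, if_neg hl]
    exact cell_bound _ _ _ hs0
  -- the centres in terms of numbers
  have hcn : ∀ c ∈ F, ∃ n : Fin 3 → ℤ, ∀ l, l ≠ k → c l = θ l + (n l + 1 / 2) * s := by
    intro c hc
    obtain ⟨x, _, rfl⟩ := (hFmem c).1 hc
    exact ⟨num x, fun l hl => by simp only [hcen, if_neg hl]⟩
  -- points of `C` in a closed cell are far from its boundary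
  have hfar : ∀ c ∈ F, ∀ x ∈ C, ∀ l, l ≠ k → |x l - c l| ≤ s / 2 → |x l - c l| ≤ s / 2 - δ₀ := by
    intro c hc x hx l hl h
    obtain ⟨n, hn⟩ := hcn c hc
    have h1 := hlat l hl x hx (n l)
    have h2 := hlat l hl x hx (n l + 1)
    have h3 := hδle l
    rw [hn l hl] at h ⊢
    push_cast at h1 h2
    rw [abs_le] at h
    rw [abs_le]
    have h4 : 0 ≤ x l - (θ l + n l * s) := by nlinarith [h.1]
    have h5 : x l - (θ l + (n l + 1) * s) ≤ 0 := by nlinarith [h.2]
    rw [abs_of_nonneg h4] at h1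
    rw [abs_of_nonpos h5] at h2
    constructor <;> nlinarith
  -- closed cells
  have hcellU : ∀ c ∈ F, ∀ x : V, |x k - a| ≤ s / 2 → (∀ l, l ≠ k → |x l - c l| ≤ s / 2) →
      x ∈ U := by
    intro c hc x hxk hx
    obtain ⟨y, hy, hyc⟩ := (hFmem c).1 hc
    refine hεU ?_
    refine mem_cthickening_of_dist_le x y ε C hy ?_
    rw [dist_pi_le_iff hε.le]
    intro l
    rw [Real.dist_eq]
    by_cases hl : l = k
    · subst hl
      have : y l = a := hy.2
      rw [this]
      linarith
    · have h1 := hx l hl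
      have h2 := hcell y l hl
      rw [hyc] at h2
      rw [abs_le] at h1 h2 ⊢
      constructor <;> linarith
  -- rings
  set ring : V → Set V := fun c => {x | x k = a ∧ (∀ l, l ≠ k → |x l - c l| ≤ s / 2) ∧
    ∃ l, l ≠ k ∧ s / 2 - δ₀ / 2 ≤ |x l - c l|} with hring
  have hringU : ∀ c ∈ F, ring c ⊆ U \ K := by
    rintro c hc x ⟨hxk, hx, l, hl, hxl⟩
    have hxU : x ∈ U := hcellU c hc x (by rw [hxk]; simp; positivity) hx
    refine ⟨hxU, fun hxK => ?_⟩
    have hxC : x ∈ C := ⟨⟨hxK, hxU⟩, hxk⟩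
    have := hfar c hc x hxC l hl (hx l hl)
    linarith
  have hringc : ∀ c ∈ F, IsCompact (ring c) := by
    intro c hc
    have hcl : IsClosed (ring c) := by
      have h1 : ring c = {x : V | x k = a} ∩ (⋂ l, {x : V | l ≠ k → |x l - c l| ≤ s / 2}) ∩
          ⋃ l, {x : V | l ≠ k ∧ s / 2 - δ₀ / 2 ≤ |x l - c l|} := by
        ext x
        simp only [hring, mem_setOf_eq, mem_inter_iff, mem_iInter, mem_iUnion, and_assoc]
      rw [h1]
      refine ((isClosed_eq (continuous_apply k) continuous_const).inter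
        (isClosed_iInter fun l => ?_)).inter (isClosed_iUnion_of_finite fun l => ?_)
      · by_cases hl : l = k
        · simp [hl]
        · simp only [ne_eq, hl, not_false_eq_true, forall_const]
          exact isClosed_le (by fun_prop) continuous_const
      · by_cases hl : l = k
        · simp [hl]
        · simp only [ne_eq, hl, not_false_eq_true, true_and]
          exact isClosed_le continuous_const (by fun_prop)
    refine Metric.isCompact_of_isClosed_isBounded hcl ?_
    refine (isBounded_closedBall (x := c) (r := s / 2)).subset ?_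
    rintro x ⟨hxk, hx, -⟩
    rw [mem_closedBall, dist_pi_le_iff (by positivity)]
    intro l
    rw [Real.dist_eq]
    by_cases hl : l = k
    · subst hl
      rw [hxk, hck c hc]
      simp
      positivity
    · exact hx l hl
  have hthick : ∃ η₀ : ℝ, 0 < η₀ ∧ ∀ c ∈ F, cthickening η₀ (ring c) ⊆ U \ K := by
    have h1 : ∀ c : V, ∃ η₀ : ℝ, 0 < η₀ ∧ (c ∈ F → cthickening η₀ (ring c) ⊆ U \ K) := by
      intro c
      by_cases hc : c ∈ F
      · obtain ⟨η₀, h1, h2⟩ := (hringc c hc).exists_cthickening_subset_open hUK (hringU c hc)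
        exact ⟨η₀, h1, fun _ => h2⟩
      · exact ⟨1, one_pos, fun h => absurd h hc⟩
    choose η₀ h1 h2 using h1
    by_cases hne : F.Nonempty
    · refine ⟨F.inf' hne η₀, ?_, fun c hc => ?_⟩
      · rw [Finset.lt_inf'_iff]
        exact fun c _ => h1 c
      · exact (cthickening_mono (Finset.inf'_le _ hc) _).trans (h2 c hc)
    · exact ⟨1, one_pos, fun c hc => absurd ⟨c, hc⟩ hne⟩
  obtain ⟨η₀, hη₀, hthick⟩ := hthick
  -- constants
  obtain ⟨η, hη, hη1, hη2, hη3⟩ : ∃ η : ℝ, 0 < η ∧ 2 * η ≤ η₀ ∧ 5 * η ≤ δ₀ / 2 ∧ 6 * η < s / 2 := by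
    refine ⟨min (η₀ / 2) (min (δ₀ / 10) (s / 24)), by positivity, ?_, ?_, ?_⟩
    · have := min_le_left (η₀ / 2) (min (δ₀ / 10) (s / 24))
      linarith
    · have := (min_le_right (η₀ / 2) (min (δ₀ / 10) (s / 24))).trans (min_le_left _ _)
      linarith
    · have := (min_le_right (η₀ / 2) (min (δ₀ / 10) (s / 24))).trans (min_le_right _ _)
      linarith
  refine ⟨F, s / 2 - 3 * η, η, hη, by linarith, hck, ?_, ?_, ?_, ?_, ?_⟩
  · -- plates in `U`
    rintro c hc x ⟨hxk, hx⟩
    refine hcellU c hc x ?_ fun l hl => (hx l hl).trans (by linarith)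
    rw [hck c hc] at hxk
    linarith
  · -- disjoint
    intro c hc c' hc' hne
    rw [Set.disjoint_left]
    rintro x ⟨-, hx⟩ ⟨-, hx'⟩
    obtain ⟨n, hn⟩ := hcn c hc
    obtain ⟨n', hn'⟩ := hcn c' hc'
    refine hne (funext fun l => ?_)
    by_cases hl : l = k
    · subst hl
      rw [hck c hc, hck c' hc']
    · have h1 := hx l hl
      have h2 := hx' l hl
      rw [hn l hl] at h1
      rw [hn' l hl] at h2
      rw [hn l hl, hn' l hl]
      rw [abs_le] at h1 h2
      have h3 : ((n l : ℝ) - n' l) * s < s := by nlinarith [h1.1, h1.2, h2.1, h2.2]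
      have h4 : -s < ((n l : ℝ) - n' l) * s := by nlinarith [h1.1, h1.2, h2.1, h2.2]
      have h5 : ((n l : ℝ) - n' l) < 1 := by
        by_contra hh
        push Not at hh
        nlinarith
      have h6 : -1 < ((n l : ℝ) - n' l) := by
        by_contra hh
        push Not at hh
        nlinarith
      have h7 : n l = n' l := by
        have h8 : n l - n' l < 1 := by exact_mod_cast h5
        have h9 : -1 < n l - n' l := by exact_mod_cast h6
        omega
      rw [h7]
  · -- rings
    rintro c hc x ⟨hxk, hx⟩ ⟨l, hl, hxl⟩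
    have h1 : Function.update x k a ∈ ring c := by
      refine ⟨by simp, fun l' hl' => ?_, l, hl, ?_⟩
      · rw [Function.update_of_ne hl']
        exact (hx l' hl').trans (by linarith)
      · rw [Function.update_of_ne hl]
        linarith
    have h2 : x ∈ cthickening η₀ (ring c) := by
      refine mem_cthickening_of_dist_le x _ η₀ _ h1 ?_
      rw [dist_pi_le_iff hη₀.le]
      intro l'
      rw [Real.dist_eq]
      by_cases hl' : l' = k
      · subst hl'
        rw [Function.update_self]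
        rw [hck c hc] at hxk
        linarith
      · rw [Function.update_of_ne hl']
        simp
        exact hη₀.le
    exact (hthick c hc h2).2
  · -- the squares meet `K`
    intro c hc
    obtain ⟨x, hx, hxc⟩ := (hFmem c).1 hc
    refine ⟨x, ⟨?_, fun l hl => ?_⟩, hx.1.1⟩
    · rw [hck c hc]
      exact hx.2
    · have h1 := hcell x l hl
      rw [hxc] at h1
      have := hfar c hc x hx l hl h1
      linarith
  · -- cover
    intro x hx
    refine ⟨cen (num x), (hFmem _).2 ⟨x, hx, rfl⟩, fun l hl => ?_⟩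
    have := hfar (cen (num x)) ((hFmem _).2 ⟨x, hx, rfl⟩) x hx l hl (hcell x l hl)
    linarith

end Vale.Agent.P073.RT.H712
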