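import Mathlib

/-!
# Two homeomorphisms which agree on the boundary of a box have the same image of the box
-/

namespace Vale.Agent.P073.RT.H712

open Set Metric Topology Filter

/-- space -/
abbrev V3 : Type := Fin 3 → ℝ

theorem preconn_shell (t : ℝ) : IsPreconnected {z : V3 | 1 < ‖z‖ ∧ ‖z‖ < t} := by
  have h1 : IsPreconnected (Ioo 1 t ×ˢ sphere (0 : V3) 1) := by
    refine isPreconnected_Ioo.prod (isPreconnected_sphere ?_ 0 1)
    rw [rank_fun']
    norm_num
  have h2 : {z : V3 | 1 < ‖z‖ ∧ ‖z‖ < t} =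
      (fun q : ℝ × V3 => q.1 • q.2) '' (Ioo 1 t ×ˢ sphere (0 : V3) 1) := by
    ext z
    constructor
    · rintro ⟨h1, h2⟩
      have h0 : ‖z‖ ≠ 0 := by linarith
      refine ⟨(‖z‖, ‖z‖⁻¹ • z), ⟨⟨h1, h2⟩, ?_⟩, ?_⟩
      · rw [mem_sphere_zero_iff_norm, norm_smul, norm_inv, norm_norm]
        exact inv_mul_cancel₀ h0
      · simp only
        rw [smul_smul, mul_inv_cancel₀ h0, one_smul]
    · rintro ⟨⟨r, θ⟩, ⟨⟨h1, h2⟩, h3⟩, rfl⟩
      rw [mem_sphere_zero_iff_norm] at h3
      simp only at h1 h2 h3 ⊢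
      rw [mem_ofPred_eq, norm_smul, h3, mul_one, Real.norm_of_nonneg (by linarith)]
      exact ⟨h1, h2⟩
  rw [h2]
  exact h1.image _ (by fun_prop)

/-- the complement of a box in a connected open set is connected -/
theorem preconn_diff_box {Ω : Set V3} (hΩ : IsOpen Ω) (hc : IsPreconnected Ω) {lo hi : V3}
    (hlt : ∀ k, lo k < hi k) (hT : Icc lo hi ⊆ Ω) : IsPreconnected (Ω \ Icc lo hi) := by
  obtain ⟨ε, hε, hεΩ⟩ := (isCompact_Icc (a := lo) (b := hi)).exists_cthickening_subset_open hΩ hT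
  set ρ : V3 := fun k => (hi k - lo k) / 2 with hρ
  set m : V3 := fun k => (hi k + lo k) / 2 with hm
  have hρ0 : ∀ k, 0 < ρ k := fun k => by
    have := hlt k
    simp only [hρ]
    linarith
  obtain ⟨R, hR0, hR⟩ : ∃ R : ℝ, 0 < R ∧ ∀ k, ρ k ≤ R := by
    refine ⟨‖ρ‖ + 1, by positivity, fun k => ?_⟩
    have := norm_le_pi_norm ρ k
    rw [Real.norm_eq_abs] at this
    have := le_abs_self (ρ k)
    linarith
  set t : ℝ := 1 + ε / R with ht
  have ht1 : 1 < t := by
    have : 0 < ε / R := by positivity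
    linarith
  set A : V3 → V3 := fun z k => m k + ρ k * z k with hA
  have hAc : Continuous A := by
    rw [continuous_pi_iff]
    intro k
    simp only [hA]
    fun_prop
  have hAT : ∀ z, A z ∈ Icc lo hi ↔ ‖z‖ ≤ 1 := by
    intro z
    rw [pi_norm_le_iff_of_nonneg zero_le_one, mem_Icc, Pi.le_def, Pi.le_def, ← forall_and]
    refine forall_congr' fun k => ?_
    have h0 := hρ0 k
    simp only [hA, Real.norm_eq_abs, abs_le]
    simp only [hρ, hm] at h0 ⊢
    constructor
    · rintro ⟨h1, h2⟩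
      constructor <;> nlinarith
    · rintro ⟨h1, h2⟩
      constructor <;> nlinarith
  have hAinv : ∀ x : V3, ∃ z, A z = x := fun x =>
    ⟨fun k => (x k - m k) / ρ k, funext fun k => by
      have := (hρ0 k).ne'
      simp only [hA]
      field_simp
      ring⟩
  have hAinj : Function.Injective A := by
    intro z w h
    funext k
    have := congrFun h k
    simp only [hA] at this
    have h0 := (hρ0 k).ne'
    have h1 : ρ k * z k = ρ k * w k := by linarith
    exact mul_left_cancel₀ h0 h1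
  set O : Set V3 := A '' {z | ‖z‖ < t} with hO
  have hOo : IsOpen O := by
    have h1 : O = (fun x : V3 => ‖fun k => (x k - m k) / ρ k‖) ⁻¹' Iio t := by
      ext x
      rw [hO, mem_preimage, mem_Iio]
      constructor
      · rintro ⟨z, hz, rfl⟩
        have : (fun k => (A z k - m k) / ρ k) = z := by
          funext k
          have := (hρ0 k).ne'
          simp only [hA]
          field_simp
          ring
        rw [this]
        exact hz
      · intro h
        refine ⟨_, h, ?_⟩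
        funext k
        have := (hρ0 k).ne'
        simp only [hA]
        field_simp
        ring
    rw [h1]
    refine isOpen_Iio.preimage ?_
    refine continuous_norm.comp ?_
    rw [continuous_pi_iff]
    intro k
    fun_prop
  have hOΩ : O ⊆ Ω := by
    rintro _ ⟨z, hz, rfl⟩
    rw [mem_ofPred_eq] at hz
    by_cases h1 : ‖z‖ ≤ 1
    · exact hT ((hAT z).2 h1)
    · push Not at h1
      have h0 : 0 < ‖z‖ := by linarith
      have h2 : A (‖z‖⁻¹ • z) ∈ Icc lo hi := by
        rw [hAT, norm_smul, norm_inv, norm_norm]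
        exact (inv_mul_cancel₀ h0.ne').le
      refine hεΩ (mem_cthickening_of_dist_le _ _ ε _ h2 ?_)
      rw [dist_pi_le_iff hε.le]
      intro k
      rw [Real.dist_eq]
      have h3 : A z k - A (‖z‖⁻¹ • z) k = ρ k * ((1 - ‖z‖⁻¹) * z k) := by
        simp only [hA, Pi.smul_apply, smul_eq_mul]
        ring
      rw [h3, abs_mul, abs_mul, abs_of_pos (hρ0 k)]
      have h4 : |z k| ≤ ‖z‖ := by
        have := norm_le_pi_norm z k
        rwa [Real.norm_eq_abs] at this
      have h5 : |1 - ‖z‖⁻¹| * |z k| ≤ ε / R := by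
        have h6 : 0 ≤ 1 - ‖z‖⁻¹ := by
          rw [sub_nonneg]
          exact inv_le_one_of_one_le₀ h1.le
        rw [abs_of_nonneg h6]
        calc (1 - ‖z‖⁻¹) * |z k| ≤ (1 - ‖z‖⁻¹) * ‖z‖ := by gcongr
          _ = ‖z‖ - 1 := by field_simp
          _ ≤ ε / R := by linarith
      calc ρ k * (|1 - ‖z‖⁻¹| * |z k|) ≤ R * (ε / R) := by
            gcongr
            exact hR k
        _ = ε := by field_simp
  have hTO : Icc lo hi ⊆ O := by
    intro x hx
    obtain ⟨z, rfl⟩ := hAinv x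
    rw [hAT] at hx
    exact ⟨z, by rw [mem_ofPred_eq]; linarith, rfl⟩
  have hshell : IsPreconnected (O \ Icc lo hi) := by
    have h1 : O \ Icc lo hi = A '' {z | 1 < ‖z‖ ∧ ‖z‖ < t} := by
      ext x
      constructor
      · rintro ⟨⟨z, hz, rfl⟩, h2⟩
        rw [hAT, not_le] at h2
        exact ⟨z, ⟨h2, hz⟩, rfl⟩
      · rintro ⟨z, ⟨h1, h2⟩, rfl⟩
        exact ⟨⟨z, h2, rfl⟩, by rw [hAT, not_le]; exact h1⟩
    rw [h1]
    exact (preconn_shell t).image _ hAc.continuousOn
  have hTne : (Icc lo hi).Nonempty := ⟨lo, le_refl _, fun k => (hlt k).le⟩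
  -- the clopen argument
  have key : ∀ u v : Set V3, IsOpen u → IsOpen v → Ω \ Icc lo hi ⊆ u ∪ v →
      (Ω \ Icc lo hi) ∩ (u ∩ v) = ∅ → O \ Icc lo hi ⊆ u → Ω \ Icc lo hi ⊆ u := by
    intro u v hu hv hcov hdis hsh
    have hs : IsOpen (Ω \ Icc lo hi) := hΩ.sdiff isClosed_Icc
    have h1 := isPreconnected_iff_subset_of_disjoint.1 hc ((u ∩ (Ω \ Icc lo hi)) ∪ O)
      (v ∩ (Ω \ Icc lo hi)) ((hu.inter hs).union hOo) (hv.inter hs)
      (by
        intro x hx
        by_cases hxT : x ∈ Icc lo hi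
        · exact Or.inl (Or.inr (hTO hxT))
        · rcases hcov ⟨hx, hxT⟩ with h | h
          · exact Or.inl (Or.inl ⟨h, hx, hxT⟩)
          · exact Or.inr ⟨h, hx, hxT⟩)
      (by
        rw [eq_empty_iff_forall_notMem]
        rintro x ⟨hx, h1, h2, h3⟩
        have hxu : x ∈ u := by
          rcases h1 with h1 | h1
          · exact h1.1
          · exact hsh ⟨h1, h3.2⟩
        have : x ∈ (Ω \ Icc lo hi) ∩ (u ∩ v) := ⟨h3, hxu, h2⟩
        rw [hdis] at this
        exact this)
    rcases h1 with h1 | h1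
    · intro x hx
      rcases h1 hx.1 with h2 | h2
      · exact h2.1
      · exact hsh ⟨h2, hx.2⟩
    · obtain ⟨x, hx⟩ := hTne
      exact absurd hx (h1 (hT hx)).2.2
  rw [isPreconnected_iff_subset_of_disjoint]
  intro u v hu hv hcov hdis
  have h1 := isPreconnected_iff_subset_of_disjoint.1 hshell u v hu hv
    ((sdiff_subset_sdiff_left hOΩ).trans hcov)
    (by
      rw [eq_empty_iff_forall_notMem]
      rintro x ⟨hx, h2⟩
      have : x ∈ (Ω \ Icc lo hi) ∩ (u ∩ v) := ⟨⟨hOΩ hx.1, hx.2⟩, h2⟩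
      rw [hdis] at this
      exact this)
  rcases h1 with h1 | h1
  · exact Or.inl (key u v hu hv hcov hdis h1)
  · exact Or.inr (key v u hv hu (by rwa [union_comm]) (by rwa [inter_comm v u]) h1)

/-- images of open sets by a homeomorphism between open sets -/
theorem image_open {Ω Λ : Set V3} (hΛ : IsOpen Λ) {f f' : V3 → V3}
    (hf : ∀ x ∈ Ω, f x ∈ Λ ∧ f' (f x) = x) (hf' : ∀ y ∈ Λ, f' y ∈ Ω ∧ f (f' y) = y)
    (hc : ContinuousOn f' Λ) {O : Set V3} (hO : IsOpen O) (hOΩ : O ⊆ Ω) : IsOpen (f '' O) := by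
  have h1 : f '' O = Λ ∩ f' ⁻¹' O := by
    ext y
    constructor
    · rintro ⟨x, hx, rfl⟩
      refine ⟨(hf x (hOΩ hx)).1, ?_⟩
      rw [mem_preimage, (hf x (hOΩ hx)).2]
      exact hx
    · rintro ⟨hy, hy'⟩
      exact ⟨f' y, hy', (hf' y hy).2⟩
  rw [h1]
  exact hc.isOpen_inter_preimage hΛ hO

theorem img_disj {Ω O E : Set V3} {f : V3 → V3} (hf : InjOn f Ω) (hO : O ⊆ Ω) (hE : E ⊆ Ω)
    (h : Disjoint O E) : Disjoint (f '' O) (f '' E) := by
  rw [Set.disjoint_left]
  rintro _ ⟨x, hx, rfl⟩ ⟨y, hy, h1⟩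
  have h2 := hf (hE hy) (hO hx) h1
  subst h2
  exact Set.disjoint_left.1 h hx hy

/-- open compact sets are empty -/
theorem not_open_compact {S : Set V3} (h1 : IsOpen S) (h2 : IsCompact S) : S = ∅ := by
  rcases isClopen_iff.1 ⟨h2.isClosed, h1⟩ with h | h
  · exact h
  · rw [h] at h2
    exact absurd h2 (noncompact_univ V3)

/-- **the images of a box by two homeomorphisms which agree on its boundary are equal** -/
theorem same_image {Ω Λ : Set V3} (hΩ : IsOpen Ω) (hc : IsPreconnected Ω) (hΛ : IsOpen Λ)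
    {f f' g g' : V3 → V3}
    (hf : ∀ x ∈ Ω, f x ∈ Λ ∧ f' (f x) = x) (hf' : ∀ y ∈ Λ, f' y ∈ Ω ∧ f (f' y) = y)
    (hfc : ContinuousOn f Ω) (hfc' : ContinuousOn f' Λ)
    (hg : ∀ x ∈ Ω, g x ∈ Λ ∧ g' (g x) = x) (hg' : ∀ y ∈ Λ, g' y ∈ Ω ∧ g (g' y) = y)
    (hgc : ContinuousOn g Ω) (hgc' : ContinuousOn g' Λ) {lo hi : V3}
    (hlt : ∀ k, lo k < hi k) (hT : Icc lo hi ⊆ Ω)
    (hbd : ∀ x ∈ Icc lo hi, (∃ k, x k = lo k ∨ x k = hi k) → f x = g x) :
    f '' Icc lo hi = g '' Icc lo hi := by
  set O : Set V3 := {x | ∀ k, lo k < x k ∧ x k < hi k} with hO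
  set E : Set V3 := Ω \ Icc lo hi with hE
  set S : Set V3 := Icc lo hi \ O with hS
  have hOT : O ⊆ Icc lo hi := fun x hx => ⟨fun k => (hx k).1.le, fun k => (hx k).2.le⟩
  have hOo : IsOpen O := by
    have : O = ⋂ k, {x : V3 | lo k < x k ∧ x k < hi k} := by
      ext x
      simp [hO]
    rw [this]
    refine isOpen_iInter_of_finite fun k => ?_
    exact (isOpen_lt continuous_const (continuous_apply k)).inter
      (isOpen_lt (continuous_apply k) continuous_const)
  have hOc : IsPreconnected O := by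
    refine Convex.isPreconnected ?_
    intro x hx y hy a b ha hb hab k
    have h1 := hx k
    have h2 := hy k
    simp only [Pi.add_apply, Pi.smul_apply, smul_eq_mul]
    have h3 : b = 1 - a := by linarith
    subst h3
    rcases eq_or_lt_of_le ha with h0 | h0
    · rw [← h0]
      simp [h2]
    · constructor <;> nlinarith
  have hOne : O.Nonempty := by
    refine ⟨fun k => (lo k + hi k) / 2, fun k => ?_⟩
    have := hlt k
    constructor <;> simp only <;> linarith
  have hEo : IsOpen E := hΩ.sdiff isClosed_Icc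
  have hEc : IsPreconnected E := preconn_diff_box hΩ hc hlt hT
  have hSfg : ∀ x ∈ S, f x = g x := by
    rintro x ⟨hx, hxO⟩
    refine hbd x hx ?_
    by_contra h
    push Not at h
    exact hxO fun k => ⟨lt_of_le_of_ne (hx.1 k) (Ne.symm (h k).1), lt_of_le_of_ne (hx.2 k) (h k).2⟩
  have hfi : InjOn f Ω := fun x hx y hy h => by
    rw [← (hf x hx).2, h, (hf y hy).2]
  have hgi : InjOn g Ω := fun x hx y hy h => by
    rw [← (hg x hx).2, h, (hg y hy).2]
  have hOΩ : O ⊆ Ω := hOT.trans hT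
  have hEΩ : E ⊆ Ω := sdiff_subset
  have hOE : Disjoint O E := by
    rw [Set.disjoint_left]
    exact fun x hx hx' => hx'.2 (hOT hx)
  -- covers
  have hcov : ∀ (φ φ' : V3 → V3), (∀ y ∈ Λ, φ' y ∈ Ω ∧ φ (φ' y) = y) → ∀ y ∈ Λ,
      y ∈ φ '' O ∨ y ∈ φ '' S ∨ y ∈ φ '' E := by
    intro φ φ' h y hy
    obtain ⟨h1, h2⟩ := h y hy
    by_cases h3 : φ' y ∈ O
    · exact Or.inl ⟨_, h3, h2⟩
    · by_cases h4 : φ' y ∈ Icc lo hi
      · exact Or.inr (Or.inl ⟨_, ⟨h4, h3⟩, h2⟩)
      · exact Or.inr (Or.inr ⟨_, ⟨h1, h4⟩, h2⟩)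
  have hSimg : f '' S = g '' S := image_congr hSfg
  have hfO := image_open hΛ hf hf' hfc' hOo hOΩ
  have hfE := image_open hΛ hf hf' hfc' hEo hEΩ
  have hgO := image_open hΛ hg hg' hgc' hOo hOΩ
  have hgE := image_open hΛ hg hg' hgc' hEo hEΩ
  have hfd : Disjoint (f '' O) (f '' E) := img_disj hfi hOΩ hEΩ hOE
  have hgd : Disjoint (g '' O) (g '' E) := img_disj hgi hOΩ hEΩ hOE
  have hOS : Disjoint O S := by
    rw [Set.disjoint_left]
    exact fun x hx hx' => hx'.2 hx
  have hES : Disjoint E S := by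
    rw [Set.disjoint_left]
    exact fun x hx hx' => hx.2 hx'.1
  have hSΩ : S ⊆ Ω := sdiff_subset.trans hT
  have hgOS : Disjoint (g '' O) (g '' S) := img_disj hgi hOΩ hSΩ hOS
  have hgES : Disjoint (g '' E) (g '' S) := img_disj hgi hEΩ hSΩ hES
  have hfOS : Disjoint (f '' O) (f '' S) := img_disj hfi hOΩ hSΩ hOS
  have hfES : Disjoint (f '' E) (f '' S) := img_disj hfi hEΩ hSΩ hES
  have hgOc : g '' O ⊆ f '' O ∪ f '' E := by
    intro y hy
    have hyΛ : y ∈ Λ := by
      obtain ⟨x, hx, rfl⟩ := hy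
      exact (hg x (hOΩ hx)).1
    rcases hcov f f' hf' y hyΛ with h | h | h
    · exact Or.inl h
    · rw [hSimg] at h
      exact absurd h (Set.disjoint_left.1 hgOS hy)
    · exact Or.inr h
  have hgEc : g '' E ⊆ f '' O ∪ f '' E := by
    intro y hy
    have hyΛ : y ∈ Λ := by
      obtain ⟨x, hx, rfl⟩ := hy
      exact (hg x (hEΩ hx)).1
    rcases hcov f f' hf' y hyΛ with h | h | h
    · exact Or.inl h
    · rw [hSimg] at h
      exact absurd h (Set.disjoint_left.1 hgES hy)
    · exact Or.inr h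
  have hfOc : f '' O ⊆ g '' O ∪ g '' E := by
    intro y hy
    have hyΛ : y ∈ Λ := by
      obtain ⟨x, hx, rfl⟩ := hy
      exact (hf x (hOΩ hx)).1
    rcases hcov g g' hg' y hyΛ with h | h | h
    · exact Or.inl h
    · rw [← hSimg] at h
      exact absurd h (Set.disjoint_left.1 hfOS hy)
    · exact Or.inr h
  have hfEc : f '' E ⊆ g '' O ∪ g '' E := by
    intro y hy
    have hyΛ : y ∈ Λ := by
      obtain ⟨x, hx, rfl⟩ := hy
      exact (hf x (hEΩ hx)).1
    rcases hcov g g' hg' y hyΛ with h | h | h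
    · exact Or.inl h
    · rw [← hSimg] at h
      exact absurd h (Set.disjoint_left.1 hfES hy)
    · exact Or.inr h
  have hEmpt : ∀ s : Set V3, s ∩ (f '' O ∩ f '' E) = ∅ := fun s => by
    rw [hfd.inter_eq, inter_empty]
  have hgOcon : IsPreconnected (g '' O) := hOc.image _ (hgc.mono hOΩ)
  have hgEcon : IsPreconnected (g '' E) := hEc.image _ (hgc.mono hEΩ)
  have c1 := isPreconnected_iff_subset_of_disjoint.1 hgOcon _ _ hfO hfE hgOc (hEmpt _)
  have c2 := isPreconnected_iff_subset_of_disjoint.1 hgEcon _ _ hfO hfE hgEc (hEmpt _)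
  have hTs : Icc lo hi = O ∪ S := by
    rw [hS, union_sdiff_cancel hOT]
  have hΩne : Ω.Nonempty := hOne.mono hOΩ
  have hTc : IsCompact (Icc lo hi) := isCompact_Icc
  rcases c1 with c1 | c1
  · have c3 : g '' E ⊆ f '' E := by
      rcases c2 with c2 | c2
      · exfalso
        -- `f '' E` is empty
        have h1 : E = ∅ := by
          rw [eq_empty_iff_forall_notMem]
          intro x hx
          have h2 : f x ∈ f '' E := ⟨x, hx, rfl⟩
          rcases hfEc h2 with h | h
          · exact Set.disjoint_left.1 hfd (c1 h) h2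
          · exact Set.disjoint_left.1 hfd (c2 h) h2
        have h2 : Ω = Icc lo hi := Subset.antisymm (sdiff_eq_empty.1 h1) hT
        have h3 : IsCompact Ω := h2 ▸ hTc
        rw [not_open_compact hΩ h3] at hΩne
        exact not_nonempty_empty hΩne
      · exact c2
    have c4 : f '' O ⊆ g '' O := by
      intro y hy
      rcases hfOc hy with h | h
      · exact h
      · exact absurd (c3 h) (Set.disjoint_left.1 hfd hy)
    rw [hTs, image_union, image_union, hSimg, Subset.antisymm c4 c1]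
  · exfalso
    have c3 : f '' O ⊆ g '' E := by
      intro y hy
      rcases hfOc hy with h | h
      · exact absurd (c1 h) (Set.disjoint_left.1 hfd hy)
      · exact h
    have c4 : g '' E ⊆ f '' O := by
      rcases c2 with c2 | c2
      · exact c2
      · exfalso
        obtain ⟨x, hx⟩ := hOne
        have h1 : f x ∈ f '' O := ⟨x, hx, rfl⟩
        exact Set.disjoint_left.1 hfd h1 (c2 (c3 h1))
    have h1 : Λ = g '' Icc lo hi ∪ f '' Icc lo hi := by
      ext y
      constructor
      · intro hy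
        rcases hcov g g' hg' y hy with h | h | h
        · exact Or.inl (image_mono hOT h)
        · exact Or.inl (image_mono sdiff_subset h)
        · exact Or.inr (image_mono hOT (c4 h))
      · rintro (⟨x, hx, rfl⟩ | ⟨x, hx, rfl⟩)
        · exact (hg x (hT hx)).1
        · exact (hf x (hT hx)).1
    have h2 : IsCompact Λ := by
      rw [h1]
      exact (hTc.image_of_continuousOn (hgc.mono hT)).union
        (hTc.image_of_continuousOn (hfc.mono hT))
    have h3 := not_open_compact hΛ h2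
    obtain ⟨x, hx⟩ := hΩne
    have h4 := (hf x hx).1
    rw [h3] at h4
    exact h4

end Vale.Agent.P073.RT.H712
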