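import Vale.Agent.P073.RT.Rows
import Vale.Agent.P073.RT.H712.SameBox

/-!
# P073, theorem (RT): replacement on the tiles which do not meet `K`
-/

namespace Vale.Agent.P073.RT.H712

open Set Metric Topology Filter
open Vale.Agent.P073.St (V)
open _root_.P073 (ConHomeo ConicalOn ConicalWithinAt ConBall RelLF)
open _root_.P073.PR720 (LF)
open _root_.P073.PA691 (BoxCx Cells)

theorem not_int_of_two {Ω : Set V} {v : V} (X : BoxCx Ω v) {p q : X.T} (hpq : p ≠ q) {x : V}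
    (hx : x ∈ X.cube p) (hx' : x ∈ X.cube q) : ∃ k, x k = X.lo p k ∨ x k = X.hi p k := by
  by_contra h
  push Not at h
  exact X.dis p q hpq x (fun k => ⟨lt_of_le_of_ne (hx.1 k) (Ne.symm (h k).1),
    lt_of_le_of_ne (hx.2 k) (h k).2⟩) hx'

/-- **Replacement**: `g` on the tiles of `P`, `h₀` elsewhere -/
theorem replace_tiles' {Ω Λ : Set V} {v : V} (X : BoxCx Ω v) (hΩ : IsOpen Ω) (hΩc : IsConnected Ω)
    (hΛ : IsOpen Λ) (g : V → V) (hg : St.IsHomeo Ω Λ g) (h₀ : ConHomeo Ω Λ) (P : Set X.T)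
    (hbd : ∀ p ∈ P, ∀ x ∈ X.cube p, (∃ k, x k = X.lo p k ∨ x k = X.hi p k) → h₀.toFun x = g x)
    (hcon : ∀ p ∈ P, ∀ x ∈ X.cube p, ConicalWithinAt g Ω x) :
    ∃ h : ConHomeo Ω Λ, (∀ p ∈ P, ∀ x ∈ X.cube p, h.toFun x = g x) ∧
      (∀ p ∉ P, ∀ x ∈ X.cube p, h.toFun x = h₀.toFun x) ∧
      ∀ x ∈ Ω, (∀ p ∈ P, ¬ ∀ l, X.lo p l < x l ∧ x l < X.hi p l) → h.toFun x = h₀.toFun x := by
  classical
  obtain ⟨g', hinv, hgc, hgc'⟩ := hg
  have hsub : ∀ p, X.cube p ⊆ Ω := fun p => X.sub p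
  have hginj : InjOn g Ω := fun x hx y hy h => by
    rw [← (hinv.1 x hx).2, h, (hinv.1 y hy).2]
  have himg : ∀ p ∈ P, g '' X.cube p = h₀.toFun '' X.cube p := by
    intro p hp
    refine (same_image hΩ hΩc.isPreconnected hΛ (f := h₀.toFun) (f' := h₀.invFun) (g := g)
      (g' := g') ?_ ?_ h₀.cont h₀.cont_inv hinv.1 hinv.2 hgc hgc' (X.lt p) (X.sub p)
      (hbd p hp)).symm
    · exact fun x hx => ⟨h₀.mapsTo hx, h₀.left_inv hx⟩
    · exact fun y hy => ⟨h₀.mapsTo_inv hy, h₀.right_inv hy⟩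
  have hcset : ∀ p, _root_.P073.ConicalSet (X.cube p) := fun p =>
    _root_.P073.Convex.conicalSet (convex_Icc _ _)
  have hcomp : ∀ p, IsCompact (X.cube p) := fun p => isCompact_Icc
  have hcl : ∀ p, IsClosed (X.cube p) := fun p => isClosed_Icc
  -- the pieces
  have hex : ∀ p, ∃ k : ConHomeo (X.cube p) (h₀.toFun '' X.cube p),
      (p ∈ P → k.toFun = g) ∧ (p ∉ P → k.toFun = h₀.toFun) := by
    intro p
    by_cases hp : p ∈ P
    · refine ⟨ConHomeo.ofCompact (hcomp p) g (hgc.mono (hsub p)) (hginj.mono (hsub p)) ?_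
        (himg p hp), fun _ => ConHomeo.ofCompact_toFun _ _ _ _ _ _, fun h => absurd hp h⟩
      exact fun x hx => (hcon p hp x hx).mono_set (hcset p x hx) (hsub p)
    · exact ⟨h₀.restr (hcset p) (hsub p), fun h => absurd h hp, fun _ => rfl⟩
  choose k hk1 hk2 using hex
  -- the value of a piece on the common boundary
  have hval : ∀ p x, x ∈ X.cube p → (∃ l, x l = X.lo p l ∨ x l = X.hi p l) →
      (k p).toFun x = h₀.toFun x := by
    intro p x hx hl
    by_cases hp : p ∈ P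
    · rw [hk1 p hp, hbd p hp x hx hl]
    · rw [hk2 p hp]
  have hXU : (⋃ p, X.cube p) = Ω := by
    refine Subset.antisymm (iUnion_subset hsub) fun x hx => ?_
    obtain ⟨p, hp⟩ := X.cover x hx
    exact mem_iUnion.2 ⟨p, hp⟩
  have hYU : (⋃ p, h₀.toFun '' X.cube p) = Λ := by
    rw [← image_iUnion, hXU, h₀.image_eq]
  have hLX : RelLF X.cube := by
    constructor
    · intro z hz
      rw [hXU] at hz
      exact X.lfT z hz
    · intro p z _ hz
      rwa [(hcl p).closure_eq] at hz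
  have hLY : RelLF fun p => h₀.toFun '' X.cube p := by
    constructor
    · intro z hz
      rw [hYU] at hz
      obtain ⟨U, hU, hfin⟩ := X.lfT (h₀.invFun z) (h₀.mapsTo_inv hz)
      have h1 : h₀.invFun ⁻¹' U ∈ 𝓝 z := (h₀.cont_inv.continuousAt (hΛ.mem_nhds hz)).preimage_mem_nhds hU
      refine ⟨h₀.invFun ⁻¹' U, h1, hfin.subset ?_⟩
      rintro p ⟨_, ⟨x, hx, rfl⟩, hxU⟩
      rw [mem_preimage, h₀.left_inv (hsub p hx)] at hxU
      exact ⟨x, hx, hxU⟩
    · intro p z _ hz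
      have h1 : IsClosed (h₀.toFun '' X.cube p) :=
        ((hcomp p).image_of_continuousOn (h₀.cont.mono (hsub p))).isClosed
      rwa [h1.closure_eq] at hz
  obtain ⟨Φ, hΦ⟩ := ConHomeo.exists_glue_family hLX hLY k
    (by
      intro p q x hx
      by_cases hpq : p = q
      · subst hpq
        rfl
      · rw [hval p x hx.1 (not_int_of_two X hpq hx.1 hx.2),
          hval q x hx.2 (not_int_of_two X (Ne.symm hpq) hx.2 hx.1)])
    (by
      intro p q y hy
      by_cases hpq : p = q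
      · subst hpq
        rw [inter_self, (k p).image_eq]
        exact hy.1
      · obtain ⟨⟨x, hx, rfl⟩, x', hx', h1⟩ := hy
        have h2 := h₀.injOn (hsub q hx') (hsub p hx) h1
        subst h2
        exact ⟨x', ⟨hx, hx'⟩, hval p x' hx (not_int_of_two X hpq hx hx')⟩)
  refine ⟨Φ.cast hXU hYU, fun p hp x hx => ?_, fun p hp x hx => ?_, fun x hx h => ?_⟩
  · rw [ConHomeo.cast_toFun, (hΦ p).1 hx, hk1 p hp]
  · rw [ConHomeo.cast_toFun, (hΦ p).1 hx, hk2 p hp]
  · obtain ⟨p, hp⟩ := X.cover x hx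
    rw [ConHomeo.cast_toFun, (hΦ p).1 hp]
    by_cases hpP : p ∈ P
    · refine hval p x hp ?_
      by_contra h1
      push Not at h1
      exact h p hpP fun l => ⟨lt_of_le_of_ne (hp.1 l) (Ne.symm (h1 l).1),
        lt_of_le_of_ne (hp.2 l) (h1 l).2⟩
    · rw [hk2 p hpP]

/-- points of a tile on one of the faces are in the frontier -/
theorem mem_frontier_cube {Ω : Set V} {v : V} (X : BoxCx Ω v) (p : X.T) {x : V}
    (hx : x ∈ X.cube p) (h : ∃ k, x k = X.lo p k ∨ x k = X.hi p k) :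
    x ∈ frontier (X.cube p) := by
  have hcl : IsClosed (X.cube p) := isClosed_Icc
  rw [frontier, hcl.closure_eq]
  refine ⟨hx, fun hi => ?_⟩
  obtain ⟨k, hk⟩ := h
  obtain ⟨ε, hε, hb⟩ := Metric.mem_nhds_iff.1 (mem_interior_iff_mem_nhds.1 hi)
  have key : ∀ s : ℝ, |s| < ε → Function.update x k (x k + s) ∈ X.cube p := by
    intro s hs
    refine hb ?_
    rw [mem_ball, dist_pi_lt_iff hε]
    intro l
    rw [Real.dist_eq]
    by_cases hl : l = k
    · subst hl
      rw [Function.update_self]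
      simpa using hs
    · rw [Function.update_of_ne hl]
      simpa using hε
  rcases hk with hk | hk
  · have h1 := (key (-(ε / 2)) (by rw [abs_neg, abs_of_pos (by positivity)]; linarith)).1 k
    rw [Function.update_self, hk] at h1
    linarith
  · have h1 := (key (ε / 2) (by rw [abs_of_pos (by positivity)]; linarith)).2 k
    rw [Function.update_self, hk] at h1
    linarith

/-- **Replacement**, literal of the claim -/
theorem replace_tiles {Ω Λ : Set V} {v : V} (X : BoxCx Ω v) (hΩ : IsOpen Ω) (hΩc : IsConnected Ω)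
    (hΛ : IsOpen Λ) (g : V → V) (hg : St.IsHomeo Ω Λ g) (h₀ : ConHomeo Ω Λ) (P : Set X.T)
    (hbd : ∀ p ∈ P, ∀ x ∈ frontier (X.cube p), h₀.toFun x = g x)
    (hcon : ∀ p ∈ P, ∀ x ∈ X.cube p, ConicalWithinAt g Ω x) :
    ∃ h : ConHomeo Ω Λ, (∀ p ∈ P, ∀ x ∈ X.cube p, h.toFun x = g x) ∧
      (∀ p ∉ P, ∀ x ∈ X.cube p, h.toFun x = h₀.toFun x) ∧
      ∀ x ∈ Ω, (∀ p ∈ P, ¬ ∀ l, X.lo p l < x l ∧ x l < X.hi p l) → h.toFun x = h₀.toFun x :=
  replace_tiles' X hΩ hΩc hΛ g hg h₀ P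
    (fun p hp x hx hk => hbd p hp x (mem_frontier_cube X p hx hk)) hcon

end Vale.Agent.P073.RT.H712
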